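import Mathlib

/-!
# P186: hyperbolicity of graphs, thin triangles versus the four-point inequality, rescaling
-/

namespace Vale.Agent.P186

open SimpleGraph

variable {V : Type*}

/-- A walk is geodesic if its length equals the graph distance of its endpoints. -/
def IsGeod {Γ : SimpleGraph V} {u v : V} (p : Γ.Walk u v) : Prop :=
  p.length = Γ.dist u v

/-- Every geodesic triangle (three geodesic walks joining three vertices) is `δ`-thin:
each vertex on one side is within distance `δ` of a vertex on one of the two other sides. -/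
def ThinTriangles (Γ : SimpleGraph V) (δ : ℕ) : Prop :=
  ∀ (x y z : V) (p : Γ.Walk x y) (q : Γ.Walk y z) (r : Γ.Walk x z),
    IsGeod p → IsGeod q → IsGeod r →
      ∀ a ∈ p.support, ∃ b, (b ∈ q.support ∨ b ∈ r.support) ∧ Γ.dist a b ≤ δ

/-- Gromov's four-point inequality with additive constant `c` for the graph metric. -/
def FourPoint (Γ : SimpleGraph V) (c : ℕ) : Prop :=
  ∀ x y z w : V, Γ.dist x y + Γ.dist z w ≤
    max (Γ.dist x z + Γ.dist y w) (Γ.dist x w + Γ.dist y z) + c

section geod

variable {Γ : SimpleGraph V}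

lemma IsGeod.dist_add_dist {u v a : V} {p : Γ.Walk u v} (hp : IsGeod p) (ha : a ∈ p.support) :
    Γ.dist u a + Γ.dist a v = Γ.dist u v := by
  classical
  have h1 : Γ.dist u a ≤ (p.takeUntil a ha).length := dist_le _
  have h2 : Γ.dist a v ≤ (p.dropUntil a ha).length := dist_le _
  have h3 : (p.takeUntil a ha).length + (p.dropUntil a ha).length = p.length := by
    rw [← Walk.length_append, Walk.take_spec]
  have h4 : Γ.dist u v ≤ Γ.dist u a + Γ.dist a v :=
    Reachable.dist_triangle_left ⟨p.takeUntil a ha⟩ v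
  unfold IsGeod at hp
  omega

lemma IsGeod.exists_dist_eq {u v : V} {p : Γ.Walk u v} (hp : IsGeod p) {t : ℕ}
    (ht : t ≤ Γ.dist u v) : ∃ a ∈ p.support, Γ.dist u a = t := by
  refine ⟨p.getVert t, p.getVert_mem_support t, ?_⟩
  have h0 := hp.dist_add_dist (p.getVert_mem_support t)
  have h1 : Γ.dist u (p.getVert t) ≤ (p.take t).length := dist_le _
  have h2 : Γ.dist (p.getVert t) v ≤ (p.drop t).length := dist_le _
  unfold IsGeod at hp
  simp only [Walk.take_length, Walk.drop_length] at h1 h2
  omega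

lemma IsGeod.reverse {u v : V} {p : Γ.Walk u v} (hp : IsGeod p) : IsGeod p.reverse := by
  unfold IsGeod at *
  rw [Walk.length_reverse, hp, dist_comm]

end geod

section equivalence

variable {Γ : SimpleGraph V}

/-- discrete intermediate value argument -/
lemma exists_switch {P Q : ℕ → Prop} {n : ℕ} (h0 : P 0) (hn : Q n)
    (h : ∀ i ≤ n, P i ∨ Q i) : ∃ i ≤ n, P i ∧ (Q i ∨ (i + 1 ≤ n ∧ Q (i + 1))) := by
  classical
  by_cases hall : ∀ i ≤ n, P i
  · exact ⟨n, le_rfl, hall n le_rfl, Or.inl hn⟩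
  · push Not at hall
    obtain ⟨j, hj⟩ := hall
    have hex : ∃ j, j ≤ n ∧ ¬ P j := ⟨j, hj⟩
    have hspec := Nat.find_spec hex
    have hmin := fun m => @Nat.find_min _ _ hex m
    generalize Nat.find hex = k at hspec hmin
    have hk0 : k ≠ 0 := by
      intro h0'
      rw [h0'] at hspec
      exact hspec.2 h0
    obtain ⟨i, rfl⟩ : ∃ i, k = i + 1 := ⟨k - 1, by omega⟩
    have hPi : P i := by
      by_contra hc
      exact hmin i (by omega) ⟨by omega, hc⟩
    refine ⟨i, by omega, hPi, Or.inr ⟨hspec.1, ?_⟩⟩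
    rcases h (i + 1) hspec.1 with h1 | h1
    · exact absurd h1 hspec.2
    · exact h1

/-- In a connected graph with `δ`-thin geodesic triangles, the four-point inequality holds with
constant `6 δ + 2`. -/
theorem ThinTriangles.fourPoint (hconn : Γ.Connected) {δ : ℕ} (h : ThinTriangles Γ δ) :
    FourPoint Γ (6 * δ + 2) := by
  intro x y z w
  have tri : ∀ a b c : V, Γ.dist a c ≤ Γ.dist a b + Γ.dist b c := fun a b c => hconn.dist_triangle
  obtain ⟨P, hP⟩ := hconn.exists_walk_length_eq_dist x y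
  obtain ⟨q, hq⟩ := hconn.exists_walk_length_eq_dist y w
  obtain ⟨r, hr⟩ := hconn.exists_walk_length_eq_dist x w
  obtain ⟨q', hq'⟩ := hconn.exists_walk_length_eq_dist y z
  obtain ⟨r', hr'⟩ := hconn.exists_walk_length_eq_dist x z
  -- a point of `P` close to both `r` and `q`
  have key : ∃ p ∈ P.support, (∃ a ∈ r.support, Γ.dist p a ≤ δ) ∧
      (∃ b ∈ q.support, Γ.dist p b ≤ δ + 1) := by
    have := exists_switch (n := P.length)
      (P := fun i => ∃ a ∈ r.support, Γ.dist (P.getVert i) a ≤ δ)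
      (Q := fun i => ∃ b ∈ q.support, Γ.dist (P.getVert i) b ≤ δ)
      ⟨x, by simp, by simp⟩ ⟨y, by simp, by simp⟩
      (by
        intro i _
        obtain ⟨b, hb, hd⟩ := h x y w P q r hP hq hr (P.getVert i) (P.getVert_mem_support i)
        rcases hb with hb | hb
        · exact Or.inr ⟨b, hb, hd⟩
        · exact Or.inl ⟨b, hb, hd⟩)
    obtain ⟨i, hi, hPi, hQ⟩ := this
    refine ⟨P.getVert i, P.getVert_mem_support i, hPi, ?_⟩
    rcases hQ with ⟨b, hb, hd⟩ | ⟨hi', b, hb, hd⟩
    · exact ⟨b, hb, by omega⟩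
    · refine ⟨b, hb, ?_⟩
      have hadj : Γ.Adj (P.getVert i) (P.getVert (i + 1)) := P.adj_getVert_succ (by omega)
      have h1 : Γ.dist (P.getVert i) (P.getVert (i + 1)) = 1 := dist_eq_one_iff_adj.mpr hadj
      have := tri (P.getVert i) (P.getVert (i + 1)) b
      omega
  obtain ⟨p, hp, ⟨a, ha, hpa⟩, ⟨b, hb, hpb⟩⟩ := key
  have e1 := IsGeod.dist_add_dist hP hp
  have e2 := IsGeod.dist_add_dist hr ha
  have e3 := IsGeod.dist_add_dist hq hb
  have t1 := tri w a p
  have t2 := tri x a p
  have t3 := tri w b p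
  have t4 := tri y b p
  have c1 : Γ.dist a p = Γ.dist p a := dist_comm
  have c2 : Γ.dist b p = Γ.dist p b := dist_comm
  have c3 : Γ.dist w a = Γ.dist a w := dist_comm
  have c4 : Γ.dist w b = Γ.dist b w := dist_comm
  have c5 : Γ.dist y p = Γ.dist p y := dist_comm
  have I : 2 * Γ.dist w p + Γ.dist x y ≤ Γ.dist x w + Γ.dist y w + 4 * δ + 2 := by omega
  obtain ⟨e, he, hpe⟩ := h x y z P q' r' hP hq' hr' p hp
  have t5 := tri e p w
  have c6 : Γ.dist e p = Γ.dist p e := dist_comm
  have c7 : Γ.dist p w = Γ.dist w p := dist_comm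
  rcases he with he | he
  · have e4 := IsGeod.dist_add_dist hq' he
    have t6 := tri y e w
    have t7 := tri z e w
    have c8 : Γ.dist z e = Γ.dist e z := dist_comm
    have : Γ.dist x y + Γ.dist z w ≤ Γ.dist x w + Γ.dist y z + (6 * δ + 2) := by omega
    exact le_trans this (by gcongr; exact le_max_right _ _)
  · have e4 := IsGeod.dist_add_dist hr' he
    have t6 := tri x e w
    have t7 := tri z e w
    have c8 : Γ.dist z e = Γ.dist e z := dist_comm
    have : Γ.dist x y + Γ.dist z w ≤ Γ.dist x z + Γ.dist y w + (6 * δ + 2) := by omega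
    exact le_trans this (by gcongr; exact le_max_left _ _)

/-- In a connected graph satisfying the four-point inequality with constant `c`, geodesic
triangles are `2 c`-thin. -/
theorem FourPoint.thinTriangles (hconn : Γ.Connected) {c : ℕ} (h : FourPoint Γ c) :
    ThinTriangles Γ (2 * c) := by
  intro x y z p q r hp hq hr a ha
  have tri : ∀ a b c : V, Γ.dist a c ≤ Γ.dist a b + Γ.dist b c := fun a b c => hconn.dist_triangle
  have e1 := IsGeod.dist_add_dist hp ha
  by_cases hcase : 2 * Γ.dist x a + Γ.dist y z ≤ Γ.dist x y + Γ.dist x z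
  · have t1 := tri x z y
    have c1 : Γ.dist z y = Γ.dist y z := dist_comm
    obtain ⟨b, hb, hxb⟩ := IsGeod.exists_dist_eq hr (t := Γ.dist x a) (by omega)
    have e2 := IsGeod.dist_add_dist hr hb
    refine ⟨b, Or.inr hb, ?_⟩
    have f1 := h a z x y
    have f2 := h a b x z
    have c2 : Γ.dist a x = Γ.dist x a := dist_comm
    have c3 : Γ.dist z x = Γ.dist x z := dist_comm
    have c4 : Γ.dist b x = Γ.dist x b := dist_comm
    omega
  · have t1 := tri x z y
    have c1 : Γ.dist y x = Γ.dist x y := dist_comm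
    have c0 : Γ.dist y a = Γ.dist a y := dist_comm
    have c5 : Γ.dist z y = Γ.dist y z := dist_comm
    obtain ⟨b, hb, hyb⟩ := IsGeod.exists_dist_eq hq (t := Γ.dist y a) (by omega)
    have e2 := IsGeod.dist_add_dist hq hb
    refine ⟨b, Or.inl hb, ?_⟩
    have f1 := h a z y x
    have f2 := h a b y z
    have c2 : Γ.dist a x = Γ.dist x a := dist_comm
    have c3 : Γ.dist z x = Γ.dist x z := dist_comm
    have c4 : Γ.dist b y = Γ.dist y b := dist_comm
    omega

end equivalence

section rescale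

variable {Γ H : SimpleGraph V} {r : ℕ}

lemma dist_le_mul_length (hconn : Γ.Connected)
    (hH : ∀ u v, H.Adj u v ↔ u ≠ v ∧ Γ.dist u v ≤ r) {u v : V} (p : H.Walk u v) :
    Γ.dist u v ≤ r * p.length := by
  induction p with
  | nil => simp
  | @cons a b c hab p ih =>
    have h1 := ((hH _ _).1 hab).2
    have h2 : Γ.dist a c ≤ Γ.dist a b + Γ.dist b c := hconn.dist_triangle
    rw [Walk.length_cons, Nat.mul_add, Nat.mul_one]
    omega

lemma exists_walk_length_le (hconn : Γ.Connected) (hr : 1 ≤ r)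
    (hH : ∀ u v, H.Adj u v ↔ u ≠ v ∧ Γ.dist u v ≤ r) :
    ∀ (n : ℕ) (u v : V), Γ.dist u v ≤ r * n → ∃ p : H.Walk u v, p.length ≤ n := by
  intro n
  induction n with
  | zero =>
    intro u v h
    have : Γ.dist u v = 0 := by simpa using h
    have huv : u = v := hconn.dist_eq_zero_iff.1 this
    subst huv
    exact ⟨Walk.nil, by simp⟩
  | succ n ih =>
    intro u v h
    by_cases hle : Γ.dist u v ≤ r
    · by_cases huv : u = v
      · subst huv
        exact ⟨Walk.nil, by simp⟩
      · exact ⟨Walk.cons ((hH u v).2 ⟨huv, hle⟩) Walk.nil, by simp⟩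
    · obtain ⟨g, hg⟩ := hconn.exists_walk_length_eq_dist u v
      obtain ⟨a, ha, hua⟩ := IsGeod.exists_dist_eq (p := g) hg (t := r) (by omega)
      have e := IsGeod.dist_add_dist (p := g) hg ha
      have hne : u ≠ a := by
        intro hc
        subst hc
        simp at hua
        omega
      have hav : Γ.dist a v ≤ r * n := by
        rw [Nat.mul_add, Nat.mul_one] at h
        omega
      obtain ⟨p, hp⟩ := ih a v hav
      exact ⟨Walk.cons ((hH u a).2 ⟨hne, by omega⟩) p, by simp; omega⟩

lemma rescale_connected (hconn : Γ.Connected) (hr : 1 ≤ r)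
    (hH : ∀ u v, H.Adj u v ↔ u ≠ v ∧ Γ.dist u v ≤ r) : H.Connected := by
  have := hconn.nonempty
  refine ⟨fun u v => ?_⟩
  obtain ⟨p, _⟩ := exists_walk_length_le hconn hr hH (Γ.dist u v) u v
    (Nat.le_mul_of_pos_left _ (by omega))
  exact ⟨p⟩

lemma dist_le_mul_dist (hconn : Γ.Connected) (hr : 1 ≤ r)
    (hH : ∀ u v, H.Adj u v ↔ u ≠ v ∧ Γ.dist u v ≤ r) (u v : V) :
    Γ.dist u v ≤ r * H.dist u v := by
  obtain ⟨p, hp⟩ := (rescale_connected hconn hr hH).exists_walk_length_eq_dist u v
  rw [← hp]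
  exact dist_le_mul_length hconn hH p

lemma mul_dist_lt (hconn : Γ.Connected) (hr : 1 ≤ r)
    (hH : ∀ u v, H.Adj u v ↔ u ≠ v ∧ Γ.dist u v ≤ r) (u v : V) :
    r * H.dist u v < Γ.dist u v + r := by
  set d := Γ.dist u v with hd
  have h1 : d ≤ r * ((d + r - 1) / r) := by
    have := Nat.div_add_mod (d + r - 1) r
    have h2 : (d + r - 1) % r < r := Nat.mod_lt _ (by omega)
    omega
  have h3 : r * ((d + r - 1) / r) ≤ d + r - 1 := Nat.mul_div_le _ _
  obtain ⟨p, hp⟩ := exists_walk_length_le hconn hr hH _ u v h1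
  have h4 : H.dist u v ≤ (d + r - 1) / r := le_trans (dist_le p) hp
  have h5 : r * H.dist u v ≤ r * ((d + r - 1) / r) := Nat.mul_le_mul_left _ h4
  omega

/-- Rescaling: if `Γ` satisfies the four-point inequality with constant `c ≤ r`, then the graph `H`
joining distinct vertices at `Γ`-distance at most `r` satisfies it with the constant `2`. -/
theorem FourPoint.rescale (hconn : Γ.Connected) (hr : 1 ≤ r)
    (hH : ∀ u v, H.Adj u v ↔ u ≠ v ∧ Γ.dist u v ≤ r) {c : ℕ} (hc : c ≤ r)
    (h : FourPoint Γ c) : FourPoint H 2 := by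
  intro x y z w
  have a1 := mul_dist_lt hconn hr hH x y
  have a2 := mul_dist_lt hconn hr hH z w
  have b1 := dist_le_mul_dist hconn hr hH x z
  have b2 := dist_le_mul_dist hconn hr hH y w
  have b3 := dist_le_mul_dist hconn hr hH x w
  have b4 := dist_le_mul_dist hconn hr hH y z
  have f := h x y z w
  set M := max (H.dist x z + H.dist y w) (H.dist x w + H.dist y z) with hM
  have m1 : r * (H.dist x z + H.dist y w) ≤ r * M := Nat.mul_le_mul_left _ (le_max_left _ _)
  have m2 : r * (H.dist x w + H.dist y z) ≤ r * M := Nat.mul_le_mul_left _ (le_max_right _ _)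
  rw [Nat.mul_add] at m1 m2
  have key : r * (H.dist x y + H.dist z w) < r * (M + 3) := by
    rw [Nat.mul_add, Nat.mul_add]
    omega
  have := Nat.lt_of_mul_lt_mul_left key
  omega

end rescale

end Vale.Agent.P186
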