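import Vale.Agent.P186.Basic

/-!
# P186: Cayley graphs, word-hyperbolic groups, and rescaling the generating set
-/

namespace Vale.Agent.P186

open SimpleGraph

variable {G : Type*} [Group G]

/-- A group is word-hyperbolic if for some finite generating set `S` there is `δ` such that all
geodesic triangles of the Cayley graph of `(G, S)` are `δ`-thin. -/
def WordHyperbolic (G : Type*) [Group G] : Prop :=
  ∃ S : Finset G, Subgroup.closure (S : Set G) = ⊤ ∧
    ∃ δ : ℕ, ThinTriangles (mulCayley (S : Set G)) δ

section cayley

variable (S : Set G)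

lemma cayley_reachable_mul (a : G) {g : G} (hg : g ∈ Subgroup.closure S) :
    (mulCayley S).Reachable a (a * g) := by
  induction hg using Subgroup.closure_induction generalizing a with
  | mem s hs =>
    by_cases h : a = a * s
    · rw [← h]
    · exact (Adj.reachable ((mulCayley_adj S _ _).2 ⟨h, Or.inl (by simpa using hs)⟩))
  | one => simp
  | mul x y _ _ hx hy =>
    rw [← mul_assoc]
    exact (hx a).trans (hy (a * x))
  | inv x _ hx =>
    have := hx (a * x⁻¹)
    simp only [inv_mul_cancel_right] at this
    exact this.symm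

lemma cayley_connected (hS : Subgroup.closure S = ⊤) : (mulCayley S).Connected := by
  refine ⟨fun u v => ?_⟩
  have := cayley_reachable_mul S u (g := u⁻¹ * v) (by rw [hS]; trivial)
  simpa using this

/-- left multiplication as a graph homomorphism of the Cayley graph -/
def cayleyLeft (a : G) : mulCayley S →g mulCayley S where
  toFun := fun g => a * g
  map_rel' := fun h => (mulCayley_adj_mul_iff_right).2 h

lemma cayley_dist_mul_le (hS : Subgroup.closure S = ⊤) (a u v : G) :
    (mulCayley S).dist (a * u) (a * v) ≤ (mulCayley S).dist u v := by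
  obtain ⟨p, hp⟩ := (cayley_connected S hS).exists_walk_length_eq_dist u v
  rw [← hp, ← Walk.length_map (cayleyLeft S a) p]
  exact dist_le _

lemma cayley_dist_mul (hS : Subgroup.closure S = ⊤) (a u v : G) :
    (mulCayley S).dist (a * u) (a * v) = (mulCayley S).dist u v := by
  apply le_antisymm (cayley_dist_mul_le S hS a u v)
  have := cayley_dist_mul_le S hS a⁻¹ (a * u) (a * v)
  simpa using this

lemma cayley_ball_finite (hfin : S.Finite) (hS : Subgroup.closure S = ⊤) (r : ℕ) :
    {g : G | (mulCayley S).dist 1 g ≤ r}.Finite := by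
  induction r with
  | zero =>
    refine (Set.finite_singleton (1 : G)).subset ?_
    intro g hg
    have : (mulCayley S).dist 1 g = 0 := by simpa using hg
    exact ((cayley_connected S hS).dist_eq_zero_iff.1 this).symm
  | succ r ih =>
    refine (ih.union (ih.mul (hfin.union hfin.inv))).subset ?_
    intro g hg
    by_cases hle : (mulCayley S).dist 1 g ≤ r
    · exact Or.inl hle
    · right
      have hg' : (mulCayley S).dist 1 g ≤ r + 1 := hg
      obtain ⟨p, hp⟩ := (cayley_connected S hS).exists_walk_length_eq_dist 1 g
      obtain ⟨a, ha, h1a⟩ := IsGeod.exists_dist_eq (p := p) hp (t := r) (by omega)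
      have e := IsGeod.dist_add_dist (p := p) hp ha
      have hag : (mulCayley S).dist a g = 1 := by omega
      have hadj := (mulCayley_adj S _ _).1 (dist_eq_one_iff_adj.1 hag)
      refine ⟨a, by simp [h1a], a⁻¹ * g, ?_, by simp⟩
      rcases hadj.2 with h | h
      · exact Or.inl h
      · right
        simpa using h

end cayley

/-- the punctured ball of radius `r` for the word metric of `S` -/
def ballSet (S : Set G) (r : ℕ) : Set G := {g : G | g ≠ 1 ∧ (mulCayley S).dist 1 g ≤ r}

lemma ballSet_finite {S : Set G} (hfin : S.Finite) (hS : Subgroup.closure S = ⊤) (r : ℕ) :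
    (ballSet S r).Finite :=
  (cayley_ball_finite S hfin hS r).subset fun _ hg => hg.2

lemma ballSet_adj {S : Set G} (hS : Subgroup.closure S = ⊤) (r : ℕ) (u v : G) :
    (mulCayley (ballSet S r)).Adj u v ↔ u ≠ v ∧ (mulCayley S).dist u v ≤ r := by
  rw [mulCayley_adj]
  have h1 : (mulCayley S).dist 1 (u⁻¹ * v) = (mulCayley S).dist u v := by
    have := cayley_dist_mul S hS u 1 (u⁻¹ * v)
    simpa using this.symm
  have h2 : (mulCayley S).dist 1 (v⁻¹ * u) = (mulCayley S).dist u v := by
    have := cayley_dist_mul S hS v 1 (v⁻¹ * u)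
    rw [dist_comm (u := u)]
    simpa using this.symm
  constructor
  · rintro ⟨hne, h | h⟩
    · exact ⟨hne, h1 ▸ h.2⟩
    · exact ⟨hne, h2 ▸ h.2⟩
  · rintro ⟨hne, h⟩
    refine ⟨hne, Or.inl ⟨?_, h1.symm ▸ h⟩⟩
    intro hc
    exact hne (by simpa [inv_mul_eq_one] using hc)

lemma ballSet_closure {S : Set G} (hS : Subgroup.closure S = ⊤) {r : ℕ} (hr : 1 ≤ r) :
    Subgroup.closure (ballSet S r) = ⊤ := by
  rw [eq_top_iff, ← hS, Subgroup.closure_le]
  intro s hs
  by_cases h1 : s = 1
  · rw [h1]; exact Subgroup.one_mem _
  · apply Subgroup.subset_closure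
    refine ⟨h1, ?_⟩
    have : (mulCayley S).Adj 1 s := (mulCayley_adj S _ _).2 ⟨fun h => h1 h.symm, Or.inl (by simpa using hs)⟩
    rw [dist_eq_one_iff_adj.2 this]
    exact hr

/-- **Universal constant.**  If the Cayley graph of `(G, S)` has `δ`-thin geodesic triangles then for
every `r ≥ 6 δ + 2` the Cayley graph with respect to the punctured `r`-ball satisfies the four-point
inequality with constant `2` and has `4`-thin geodesic triangles. -/
theorem rescale_cayley {S : Set G} (hS : Subgroup.closure S = ⊤) {δ r : ℕ}
    (h : ThinTriangles (mulCayley S) δ) (hr : 6 * δ + 2 ≤ r) :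
    FourPoint (mulCayley (ballSet S r)) 2 ∧ ThinTriangles (mulCayley (ballSet S r)) 4 := by
  have hconn := cayley_connected S hS
  have h4 := h.fourPoint hconn
  have hH := ballSet_adj hS r
  have h2 : FourPoint (mulCayley (ballSet S r)) 2 :=
    FourPoint.rescale hconn (by omega) hH hr h4
  exact ⟨h2, h2.thinTriangles (rescale_connected hconn (by omega) hH)⟩

end Vale.Agent.P186
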